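import Vale.Agent.Lib.P356.Main

namespace Vale.Agent.Results.P356.CommutingAreaLaw

open Matrix Vale.Agent.Lib.P356

/-- Area law with an explicit constant for commuting finite-range Hamiltonians on the box
`{1,…,L}²`: if the local terms `h X` are Hermitian, act on `X`, vanish when the `ℓ¹` diameter of
`X` exceeds `R`, and commute pairwise, then for every unit eigenvector `Ω` of `H = ∑_X h X` whose
eigenvalue is simple and every region `A`, the reduced density matrix `ρ_A` is Hermitian and its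
von Neumann entropy `∑ -λ log λ` is at most `(2R-1)² · log q · |∂A|`. -/
theorem result (q L R : ℕ) (h : Finset (Site L) → Matrix (Config L q) (Config L q) ℂ)
    (hherm : ∀ X, (h X).IsHermitian) (hact : ∀ X, ActsOn X (h X))
    (hrange : ∀ X, (∃ x ∈ X, ∃ y ∈ X, R < dist1 x y) → h X = 0)
    (hcomm : ∀ X Y, h X * h Y = h Y * h X)
    (E : ℂ) (Ω : Config L q → ℂ) (hΩ : (∑ X, h X) *ᵥ Ω = E • Ω)
    (hnorm : ∑ σ, ‖Ω σ‖ ^ 2 = 1)
    (hsimple : ∀ ψ : Config L q → ℂ, (∑ X, h X) *ᵥ ψ = E • ψ → ∃ c : ℂ, ψ = c • Ω)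
    (A : Finset (Site L)) :
    ∃ hρ : (reducedDensity A Ω).IsHermitian, ∑ i, Real.negMulLog (hρ.eigenvalues i)
      ≤ (2 * (R : ℝ) - 1) ^ 2 * Real.log q * (edgeBoundary A).card :=
  area_law_of_commuting q L R h hherm hact hrange hcomm E Ω hΩ hnorm hsimple A

end Vale.Agent.Results.P356.CommutingAreaLaw
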