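import Vale.Agent.Lib.P356.Main

namespace Vale.Agent.Results.P356.ConservedRegionAreaLaw

open Matrix Vale.Agent.Lib.P356

/-- Area law for one region `A` of a finite-range Hamiltonian `H = ∑_X h X` on the box
`{1,…,L}²`, assuming only that the restriction `H_A = ∑_{X ⊆ A} h X` commutes with `H` (no
commutation is assumed among the other terms): for every unit eigenvector `Ω` of `H` whose
eigenvalue is simple, `ρ_A` is Hermitian and its von Neumann entropy `∑ -λ log λ` is at most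
`(2R-1)² · log q · |∂A|`. -/
theorem result (q L R : ℕ) (h : Finset (Site L) → Matrix (Config L q) (Config L q) ℂ)
    (hherm : ∀ X, (h X).IsHermitian) (hact : ∀ X, ActsOn X (h X))
    (hrange : ∀ X, (∃ x ∈ X, ∃ y ∈ X, R < dist1 x y) → h X = 0)
    (E : ℂ) (Ω : Config L q → ℂ) (hΩ : (∑ X, h X) *ᵥ Ω = E • Ω)
    (hnorm : ∑ σ, ‖Ω σ‖ ^ 2 = 1)
    (hsimple : ∀ ψ : Config L q → ℂ, (∑ X, h X) *ᵥ ψ = E • ψ → ∃ c : ℂ, ψ = c • Ω)
    (A : Finset (Site L))
    (hcomm : (∑ X ∈ Finset.univ.filter (fun X => X ⊆ A), h X) * (∑ X, h X)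
      = (∑ X, h X) * (∑ X ∈ Finset.univ.filter (fun X => X ⊆ A), h X)) :
    ∃ hρ : (reducedDensity A Ω).IsHermitian, ∑ i, Real.negMulLog (hρ.eigenvalues i)
      ≤ (2 * (R : ℝ) - 1) ^ 2 * Real.log q * (edgeBoundary A).card :=
  area_law_of_region_commute R h hherm hact hrange A hcomm E Ω hΩ hnorm hsimple

end Vale.Agent.Results.P356.ConservedRegionAreaLaw
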